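import Vale.Agent.Lib.P295.Separable

/-!
P295: the stable coordinate conjecture holds, in every dimension `n` and for every number `m` of
added variables, for polynomials of total degree at most two and for sums
`p_1(x_1) + ... + p_n(x_n)` of univariate polynomials in separate variables.
-/

namespace Vale.Agent.Results.P295.AllResults

open Vale.Agent.Lib.P295

theorem result (n : ℕ) :
    (∀ f : MvPolynomial (Fin n) ℂ, f.totalDegree ≤ 2 → IsStableCoordinate f → IsCoordinate f) ∧
    (∀ p : Fin n → Polynomial ℂ, IsStableCoordinate (sepSum p) →
      IsCoordinate (sepSum p) ∧ ∃ j, (p j).natDegree = 1) :=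
  ⟨fun f hdeg h => coordinate_of_stable_of_degree_le_two f hdeg h,
    fun p h => coordinate_of_stable_sepSum p h⟩

end Vale.Agent.Results.P295.AllResults
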