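import Vale.Agent.Lib.P295.Separable2

/-!
P295: the stable coordinate conjecture holds, in every dimension `n` and for every number `m` of
added variables, for polynomials of total degree at most two, and for sums
`p_1(x_1) + ... + p_n(x_n)` of univariate polynomials in separate variables, where the (stable)
coordinates are classified: they are the sums in which some `p_j` has degree exactly one.
-/

namespace Vale.Agent.Results.P295.Classification

open Vale.Agent.Lib.P295

theorem result (n : ℕ) :
    (∀ f : MvPolynomial (Fin n) ℂ, f.totalDegree ≤ 2 → IsStableCoordinate f → IsCoordinate f) ∧
    (∀ p : Fin n → Polynomial ℂ,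
      (IsStableCoordinate (sepSum p) ↔ IsCoordinate (sepSum p)) ∧
      (IsCoordinate (sepSum p) ↔ ∃ j, (p j).natDegree = 1)) :=
  ⟨fun f hdeg h => coordinate_of_stable_of_degree_le_two f hdeg h,
    fun p => sepSum_classification p⟩

end Vale.Agent.Results.P295.Classification
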