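import Vale.Agent.Lib.P295.Slice

/-!
P295: the stable coordinate conjecture holds, in every dimension `n` and for every number `m` of
added variables, for polynomials of total degree at most two.
-/

namespace Vale.Agent.Results.P295.DegreeTwo

open Vale.Agent.Lib.P295

theorem result (n : ℕ) (f : MvPolynomial (Fin n) ℂ) (hdeg : f.totalDegree ≤ 2)
    (h : IsStableCoordinate f) : IsCoordinate f :=
  coordinate_of_stable_of_degree_le_two f hdeg h

end Vale.Agent.Results.P295.DegreeTwo
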